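import Mathlib

namespace Vale.Agent.Results.P038.CliqueFreeSecondNbhd

open Finset

/-- First out-neighbourhood of `v` in the digraph with arc relation `A`. -/
noncomputable def N1 {V : Type*} [Fintype V] (A : V → V → Prop) (v : V) : Finset V :=
  open Classical in Finset.univ.filter (fun u => A v u)

/-- Second out-neighbourhood of `v`: vertices at directed distance exactly two from `v`. -/
noncomputable def N2 {V : Type*} [Fintype V] (A : V → V → Prop) (v : V) : Finset V :=
  open Classical in Finset.univ.filter (fun w => w ≠ v ∧ ¬ A v w ∧ ∃ u, A v u ∧ A u w)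

theorem result {V : Type*} [Fintype V] [Nonempty V] (A : V → V → Prop)
    (hA : ∀ u v, A u v → ¬ A v u)
    (G : SimpleGraph V) (hG : ∀ u v, G.Adj u v ↔ (A u v ∨ A v u))
    (r : ℕ) (hr : 1 ≤ r) (hfree : G.CliqueFree (r + 2)) :
    ∃ v : V, (r + 1) * (N1 A v).card ≤ 2 * r * (N2 A v).card := by
  classical
  obtain ⟨v, -, hv⟩ := Finset.exists_min_image (Finset.univ : Finset V)
    (fun v => (N1 A v).card) Finset.univ_nonempty
  refine ⟨v, ?_⟩
  set S : Finset V := N1 A v with hS
  have memS : ∀ u, u ∈ S ↔ A v u := by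
    intro u; simp [hS, N1]
  -- the induced graph on S is K_{r+1}-free
  have hfreeS : (G.induce (S : Set V)).CliqueFree (r + 1) := by
    rw [SimpleGraph.cliqueFree_induce_iff]
    have h1 : G.CliqueFreeOn Set.univ (r + 1 + 1) := (SimpleGraph.cliqueFreeOn_univ G).2 hfree
    have h2 := SimpleGraph.CliqueFreeOn.of_succ G h1 (Set.mem_univ v)
    refine SimpleGraph.CliqueFreeOn.subset G ?_ h2
    intro u hu
    refine ⟨Set.mem_univ _, ?_⟩
    rw [SimpleGraph.mem_neighborSet, hG]
    exact Or.inl ((memS u).1 hu)
  -- Turan bound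
  have hT : 2 * r * (G.induce (S : Set V)).edgeFinset.card ≤ (r - 1) * S.card ^ 2 := by
    have h1 := hfreeS.card_edgeFinset_le
    simp only at h1
    rw [← SimpleGraph.card_edgeFinset_turanGraph] at h1
    have h2 := SimpleGraph.mul_card_edgeFinset_turanGraph_le (n := Fintype.card ↥(S : Set V)) (r := r)
    have h3 : Fintype.card ↥(S : Set V) = S.card := by simp
    rw [h3] at h1 h2
    calc 2 * r * (G.induce (S : Set V)).edgeFinset.card
        ≤ 2 * r * (SimpleGraph.turanGraph S.card r).edgeFinset.card := Nat.mul_le_mul_left _ h1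
      _ ≤ _ := h2
  -- arcs inside S
  set arcs : Finset (↥(S : Set V) × ↥(S : Set V)) :=
    Finset.univ.filter (fun p => A p.1.1 p.2.1) with harcs
  have hinj : arcs.card ≤ (G.induce (S : Set V)).edgeFinset.card := by
    refine Finset.card_le_card_of_injOn (fun p => s(p.1, p.2)) ?_ ?_
    · intro p hp
      have hp' : A p.1.1 p.2.1 := by
        have := hp
        simp only [harcs, Finset.coe_filter, Finset.mem_univ, true_and] at this
        exact this
      simp only [Finset.mem_coe, SimpleGraph.mem_edgeFinset, SimpleGraph.mem_edgeSet,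
        SimpleGraph.comap_adj, Function.Embedding.subtype_apply]
      rw [hG]
      exact Or.inl hp'
    · intro p hp q hq hpq
      have hp' : A p.1.1 p.2.1 := by
        have := hp
        simp only [harcs, Finset.coe_filter, Finset.mem_univ, true_and] at this
        exact this
      have hq' : A q.1.1 q.2.1 := by
        have := hq
        simp only [harcs, Finset.coe_filter, Finset.mem_univ, true_and] at this
        exact this
      simp only [Sym2.eq_iff] at hpq
      rcases hpq with ⟨h1, h2⟩ | ⟨h1, h2⟩
      · exact Prod.ext h1 h2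
      · exfalso
        rw [h1, h2] at hp'
        exact hA _ _ hq' hp'
  have hsum : arcs.card = ∑ u : ↥(S : Set V),
      (Finset.univ.filter (fun w : ↥(S : Set V) => A u.1 w.1)).card := by
    rw [harcs, Finset.card_filter, ← Finset.univ_product_univ, Finset.sum_product]
    refine Finset.sum_congr rfl (fun u _ => ?_)
    rw [Finset.card_filter]
  by_cases hS0 : S.card = 0
  · rw [hS0]; simp
  -- averaging
  have hne : (Finset.univ : Finset ↥(S : Set V)).Nonempty := by
    rw [Finset.univ_nonempty_iff]
    have : 0 < S.card := Nat.pos_of_ne_zero hS0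
    obtain ⟨x, hx⟩ := Finset.card_pos.1 this
    exact ⟨⟨x, hx⟩⟩
  obtain ⟨u, -, hu⟩ := Finset.exists_min_image (Finset.univ : Finset ↥(S : Set V))
    (fun u => (Finset.univ.filter (fun w : ↥(S : Set V) => A u.1 w.1)).card) hne
  set d := (Finset.univ.filter (fun w : ↥(S : Set V) => A u.1 w.1)).card with hd
  have hcardS : (Finset.univ : Finset ↥(S : Set V)).card = S.card := by simp
  have havg : S.card * d ≤ arcs.card := by
    rw [hsum, ← hcardS, ← smul_eq_mul]
    exact Finset.card_nsmul_le_sum _ _ _ (fun x hx => hu x hx)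
  -- 2 r d ≤ (r-1) |S|
  have hd2 : 2 * r * d ≤ (r - 1) * S.card := by
    have h1 : S.card * (2 * r * d) ≤ S.card * ((r - 1) * S.card) := by
      calc S.card * (2 * r * d) = 2 * r * (S.card * d) := by ring
        _ ≤ 2 * r * arcs.card := Nat.mul_le_mul_left _ havg
        _ ≤ 2 * r * (G.induce (S : Set V)).edgeFinset.card := Nat.mul_le_mul_left _ hinj
        _ ≤ (r - 1) * S.card ^ 2 := hT
        _ = S.card * ((r - 1) * S.card) := by ring
    exact Nat.le_of_mul_le_mul_left h1 (Nat.pos_of_ne_zero hS0)
  -- out-neighbours of u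
  have hvu : A v u.1 := (memS u.1).1 u.2
  have hsub : N1 A u.1 ⊆
      (Finset.univ.filter (fun w : ↥(S : Set V) => A u.1 w.1)).image (fun w => w.1) ∪ N2 A v := by
    intro w hw
    have hw' : A u.1 w := by simpa [N1] using hw
    by_cases hvw : A v w
    · apply Finset.mem_union_left
      rw [Finset.mem_image]
      exact ⟨⟨w, (memS w).2 hvw⟩, by simp [hw'], rfl⟩
    · apply Finset.mem_union_right
      simp only [N2, Finset.mem_filter, Finset.mem_univ, true_and]
      refine ⟨?_, hvw, u.1, hvu, hw'⟩
      intro h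
      subst h
      exact hA _ _ hvu hw'
  have hcard : (N1 A u.1).card ≤ d + (N2 A v).card := by
    calc (N1 A u.1).card ≤ _ := Finset.card_le_card hsub
      _ ≤ _ := Finset.card_union_le _ _
      _ ≤ d + (N2 A v).card := Nat.add_le_add_right Finset.card_image_le _
  have hmin : S.card ≤ (N1 A u.1).card := hv u.1 (Finset.mem_univ _)
  have hfin : S.card ≤ d + (N2 A v).card := hmin.trans hcard
  obtain ⟨r', rfl⟩ : ∃ r', r = r' + 1 := ⟨r - 1, by omega⟩
  simp only [Nat.add_sub_cancel] at hd2
  nlinarith

end Vale.Agent.Results.P038.CliqueFreeSecondNbhd
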